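import Vale.Agent.Lib.P021.Exponent
import Vale.Agent.Lib.P021.Cells
import Vale.Agent.Lib.P021.PathSup352
import Vale.Agent.Lib.P021.Numerics

/-!
# The irrationality exponent of `π` is at most `6.045`
-/

namespace Vale.Agent.Results.P021.PiExponentA
open Vale.Agent.P021

/-- base cells of primes for the exponents `3, 5, 2` -/
def cells352 : List Base := [⟨2, 3, 3, 400000000, 449999999⟩, ⟨3, 6, 5, 720000000, 749999999⟩]

theorem cells352_ok : okList 3 5 2 4 600000000 cells352 = true := by decide +kernel

theorem cells352_block : 293927339988 ≤ blockNat 1000000000000 600000000 cells352 12 0 := by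
  decide +kernel

theorem cells352_sum : (4:ℝ) - (blockNat 1000000000000 600000000 cells352 12 0 : ℝ) /
    ((1000000000000 : ℕ) : ℝ) < 3.70608 := by
  have hb : (293927339988 : ℝ) ≤ (blockNat 1000000000000 600000000 cells352 12 0 : ℝ) := by
    exact_mod_cast cells352_block
  have h1 : (293927339988 : ℝ) / 1000000000000 ≤
      (blockNat 1000000000000 600000000 cells352 12 0 : ℝ) / ((1000000000000 : ℕ) : ℝ) := by
    rw [Nat.cast_ofNat]
    exact div_le_div_of_nonneg_right hb (by norm_num)
  have h2 : (4:ℝ) - 293927339988 / 1000000000000 < 3.70608 := by norm_num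
  linarith

theorem result : irrationalityExponent Real.pi ≤ ((6045 / 1000 : ℝ) : EReal) := by
  obtain ⟨hv, hv', hsup⟩ := pathSup352
  exact exponent_bound (M1 := 3) (M2 := 5) (a := 2) (c := 4) hv hv' (by norm_num) (by norm_num)
    (by norm_num) (r := 39 / 100) (R := 37812) (ρ := 1459 / 1000000) (lR := 10.5404) (lr := 6.5300)
    (by norm_num) (by norm_num) (by norm_num) circleSup352 (by norm_num) hsup num352R num352rho
    (Den := 600000000) (by norm_num) (l := cells352) cells352_ok (Q := 1000000000000) (d := 12)
    (by norm_num) (Y := 3.70608) (by exact_mod_cast cells352_sum) (by norm_num) (by norm_num)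
    (by norm_num)

end Vale.Agent.Results.P021.PiExponentA
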