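import Vale.Agent.Lib.P021.Exponent
import Vale.Agent.Lib.P021.Cells
import Vale.Agent.Lib.P021.PathSup569237b
import Vale.Agent.Lib.P021.Numerics2

/-!
# The irrationality exponent of `π` is at most `6.0373`
-/

namespace Vale.Agent.Results.P021.PiExponentC
open Vale.Agent.P021

/-- base cells of primes for the exponents `56, 92, 37` -/
def cells569237 : List Base := [
  ⟨2, 3, 3, 1702000000, 1931999999⟩, ⟨3, 6, 5, 3108000000, 3219999999⟩, ⟨5, 8, 7, 4255000000,
  4507999999⟩, ⟨6, 11, 9, 5698000000, 5795999999⟩, ⟨8, 13, 11, 6808000000, 7083999999⟩, ⟨9, 16,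
  13, 8288000000, 8371999999⟩, ⟨11, 18, 15, 9361000000, 9659999999⟩, ⟨12, 21, 17, 10878000000,
  10947999999⟩, ⟨14, 23, 19, 11914000000, 12235999999⟩, ⟨15, 26, 21, 13468000000, 13523999999⟩,
  ⟨17, 28, 23, 14504000000, 14811999999⟩, ⟨18, 31, 25, 16058000000, 16099999999⟩, ⟨20, 33, 27,
  17094000000, 17387999999⟩, ⟨21, 36, 29, 18648000000, 18675999999⟩, ⟨23, 38, 31, 19684000000,
  19963999999⟩, ⟨24, 41, 33, 21238000000, 21251999999⟩, ⟨26, 43, 35, 22274000000, 22539999999⟩,
  ⟨29, 48, 39, 24864000000, 25115999999⟩, ⟨31, 50, 41, 26381000000, 26403999999⟩, ⟨32, 53, 43,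
  27454000000, 27691999999⟩, ⟨34, 55, 45, 28934000000, 28979999999⟩, ⟨35, 58, 47, 30044000000,
  30267999999⟩, ⟨37, 60, 49, 31487000000, 31555999999⟩, ⟨38, 63, 51, 32634000000, 32843999999⟩,
  ⟨40, 65, 53, 34040000000, 34131999999⟩, ⟨41, 68, 55, 35224000000, 35419999999⟩, ⟨43, 70, 57,
  36593000000, 36707999999⟩, ⟨44, 73, 59, 37814000000, 37995999999⟩, ⟨46, 75, 61, 39146000000,
  39283999999⟩, ⟨47, 78, 63, 40404000000, 40571999999⟩, ⟨49, 80, 65, 41699000000, 41859999999⟩,
  ⟨50, 83, 67, 42994000000, 43147999999⟩, ⟨52, 85, 69, 44252000000, 44435999999⟩, ⟨53, 88, 71,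
  45584000000, 45723999999⟩, ⟨55, 90, 73, 46805000000, 47011999999⟩, ⟨56, 93, 75, 48174000000,
  48299999999⟩]

theorem cells_ok : okList 56 92 37 74 47656000000 cells569237 = true := by decide +kernel

theorem cells_block : 5701171522209 ≤ blockNat 1000000000000 47656000000 cells569237 12 0 := by
  decide +kernel

theorem cells_sum : (74:ℝ) - (blockNat 1000000000000 47656000000 cells569237 12 0 : ℝ) /
    ((1000000000000 : ℕ) : ℝ) < 68.298830 := by
  have hb : (5701171522209 : ℝ) ≤ (blockNat 1000000000000 47656000000 cells569237 12 0 : ℝ) := by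
    exact_mod_cast cells_block
  have h1 : (5701171522209 : ℝ) / 1000000000000 ≤
      (blockNat 1000000000000 47656000000 cells569237 12 0 : ℝ) / ((1000000000000 : ℕ) : ℝ) := by
    rw [Nat.cast_ofNat]
    exact div_le_div_of_nonneg_right hb (by norm_num)
  have h2 : (74:ℝ) - 5701171522209 / 1000000000000 < 68.298830 := by norm_num
  linarith

theorem result : irrationalityExponent Real.pi ≤ ((60373 / 10000 : ℝ) : EReal) := by
  obtain ⟨hv, hv', hsup⟩ := pathSup569237b
  exact exponent_bound (M1 := 56) (M2 := 92) (a := 37) (c := 74) hv hv' (by norm_num) (by norm_num)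
    (by norm_num) (r := 783 / 2000) (R := 45578633826 * 10 ^ 74)
    (ρ := 439929292296439434601057 / 10 ^ 76)
    (lR := 194.934002) (lr := 120.555566)
    (by norm_num) (by norm_num) (by norm_num) circleSup569237b (by norm_num) hsup num569237Rb
    num569237rhob
    (Den := 47656000000) (by norm_num) (l := cells569237) cells_ok (Q := 1000000000000) (d := 12)
    (by norm_num) (Y := 68.298830) (by exact_mod_cast cells_sum) (by norm_num) (by norm_num)
    (by norm_num)

end Vale.Agent.Results.P021.PiExponentC
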